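import Vale.Agent.P032.H437.Fam
import Vale.Agent.P032.H605.F10
import Vale.Agent.P032.S5.H80.Anti

/-!
# P032: the families pair, sub4, room3, room4, sideIO4, defM of the sound rule set, on the lattice

* `pair` : a letter with a colour of `T w` has another colour;
* `sub4` : four colours at `w`, or some colour of the letter is not in `T w`;
* `room3`, `room4` : the number of the colours of a letter;
* `sideIO4` : at most four colours at `w` and two disjoint exact pairs `{x, y}`, `{a, b}` : the colour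
  `x` does not occur on both sides of a letter point of `S(w)`;
* `defM` : a letter `{a, b}` inside `T w` is an exact pair.
-/

open Set Filter Topology Metric

noncomputable section

namespace Vale.Agent.P032.H894

open Vale.Agent.P032.Six Vale.Agent.P032.Sweep Vale.Agent.P032.S5.H767 Vale.Agent.P032.S5.H122
  Vale.Agent.P032.H158 Vale.Agent.P032.H782 Vale.Agent.P032.H437 Vale.Agent.P032.H605

section uf

variable {U : Fin 6 → Set ℂ} {T : ℂ → Set (Fin 6)} {F : Ultrafilter ℝ} {w : ℂ} {k : ℝ}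
  {i x y a b : Fin 6}

/-- a letter with a colour of `T w` has another colour -/
theorem lt_pair (h : Irr U T) (hiw : i ∈ T w) :
    ∃ j, j ≠ i ∧ j ∈ lt F T w k := by
  by_contra hcon
  push Not at hcon
  obtain ⟨v, hv⟩ := (lt_spec F T w k).exists
  have h1 : T (pt w (v + k)) ⊆ {i} := by
    intro j hj
    by_contra h2
    exact hcon j h2 (by rw [← hv]; exact hj)
  exact h.mx.notMem' (h.mem_of_single h1) (dist_pt w _) (h.sub w hiw)

/-- four colours at `w`, or some colour of the letter is not in `T w` -/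
theorem lt_sub4 (h : Irr U T) (F : Ultrafilter ℝ) (w : ℂ) (k : ℝ) :
    4 ≤ (T w).ncard ∨ ∃ i ∈ lt F T w k, i ∉ T w := by
  by_cases h4 : 4 ≤ (T w).ncard
  · exact Or.inl h4
  · exact Or.inr (lt_three h (by omega) k)

/-- a letter of three colours inside `T w` needs five colours at `w` -/
theorem lt_room3 (h : Irr U T) (hs : LcF F T w k) (h3 : 3 ≤ (lt F T w k).ncard) :
    5 ≤ (T w).ncard ∨ ∃ i ∈ lt F T w k, i ∉ T w := by
  by_cases hsub : lt F T w k ⊆ T w
  · left
    have h1 := (lt_two_out h hs hsub).2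
    have h2 := Set.ncard_sdiff_add_ncard_of_subset hsub (Set.toFinite _)
    omega
  · right
    exact Set.not_subset.1 hsub

/-- a point with two disjoint exact pairs and at most four colours is a two-pair point -/
theorem dpt_of (h : Irr U T) (h4 : (T w).ncard ≤ 4) (hM : M605 T w x y) (hM' : M605 T w a b)
    (hxa : x ≠ a) (hxb : x ≠ b) (hya : y ≠ a) (hyb : y ≠ b) : DPt T w x y a b := by
  obtain ⟨h1, h2, h3, q, h5, h6⟩ := hM
  obtain ⟨h1', h2', h3', q', h5', h6'⟩ := hM'
  refine ⟨?_, hxa, hxb, hya, hyb, h1, h1', ⟨q, h.arc_of_pair429 h2 h3 h5 h6⟩,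
    ⟨q', h.arc_of_pair429 h2' h3' h5' h6'⟩⟩
  symm
  refine Set.eq_of_subset_of_ncard_le ?_ ?_ (Set.toFinite _)
  · rintro c (rfl | rfl | rfl | rfl) <;> assumption
  · have : ({x, y, a, b} : Set (Fin 6)).ncard = 4 := by
      rw [Set.ncard_insert_of_notMem (by simp [h1, hxa, hxb]),
        Set.ncard_insert_of_notMem (by simp [hya, hyb]), Set.ncard_pair h1']
    omega

/-- **sides at order four** : at a two-pair point no colour of `T w` occurs on both sides -/
theorem lt_side (h : Irr U T) (hz : DPt T w x y a b) :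
    ¬ (Inn F T w k x ∧ Out F T w k x) := by
  rintro ⟨hi, ho⟩
  obtain ⟨v, h1, h2⟩ := (Filter.Eventually.and hi ho).exists
  rcases h.sides hz (V := pt w (v + k)) (dist_pt w _) with h3 | h3
  · obtain ⟨p, ⟨h4, h5⟩, h6⟩ := ((h2.freq h).and_eventually h3).exists
    exact h6.1 h5 (subset_closure h4)
  · obtain ⟨p, ⟨h4, h5⟩, h6⟩ := ((h1.freq h).and_eventually h3).exists
    exact h6.2 h5 (subset_closure h4)

/-- **sides at order four**, any centre, any ultrafilter -/
theorem lt_side_M (h : Irr U T) (h4 : (T w).ncard ≤ 4) (hM : M605 T w x y) (hM' : M605 T w a b)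
    (hxa : x ≠ a) (hxb : x ≠ b) (hya : y ≠ a) (hyb : y ≠ b) (hi : Inn F T w k x) :
    ¬ Out F T w k x :=
  fun ho => lt_side h (dpt_of h h4 hM hM' hxa hxb hya hyb) ⟨hi, ho⟩

end uf

/-! ### on the lattice -/

variable {U : Fin 6 → Set ℂ} {T : ℂ → Set (Fin 6)} {z : ℂ} {u : ℝ} {F : Bool → Ultrafilter ℝ}
  {σ : Bool} {m n : ℤ} {j i x y a b : Fin 6}

/-- **pair** -/
theorem pair (hf : Fr U T u F) (σ : Bool) (j : Fin 6) (hT : TT T z u m n i) :
    ∃ c, c ≠ i ∧ LT T z u F σ m n j c := lt_pair hf.irr hT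

/-- **sub4** -/
theorem sub4 (hf : Fr U T u F) (z : ℂ) (σ : Bool) (m n : ℤ) (j : Fin 6) :
    4 ≤ (T (lp z u m n)).ncard ∨ ∃ c, LT T z u F σ m n j c ∧ ¬ TT T z u m n c := by
  rcases lt_sub4 hf.irr (F σ) (lp z u m n) (j.val : ℝ) with h | ⟨c, h1, h2⟩
  · exact Or.inl h
  · exact Or.inr ⟨c, h1, h2⟩

/-- **room3** -/
theorem room3 (hf : Fr U T u F) (hx : LT T z u F σ m n j x) (hy : LT T z u F σ m n j y)
    (ha : LT T z u F σ m n j a) (hxy : x ≠ y) (hxa : x ≠ a) (hya : y ≠ a) :
    5 ≤ (T (lp z u m n)).ncard ∨ ∃ c, LT T z u F σ m n j c ∧ ¬ TT T z u m n c := by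
  have h3 : 3 ≤ (lt (F σ) T (lp z u m n) (j.val : ℝ)).ncard := by
    have h1 : ({x, y, a} : Set (Fin 6)).ncard = 3 := by
      rw [Set.ncard_insert_of_notMem (by simp [hxy, hxa]), Set.ncard_pair hya]
    rw [← h1]
    refine Set.ncard_le_ncard ?_ (Set.toFinite _)
    rintro c (rfl | rfl | rfl) <;> assumption
  rcases lt_room3 hf.irr (hf.lc σ _ _) h3 with h | ⟨c, h1, h2⟩
  · exact Or.inl h
  · exact Or.inr ⟨c, h1, h2⟩

/-- **room4** : a letter has at most three colours -/
theorem room4 (hf : Fr U T u F) (hx : LT T z u F σ m n j x) (hy : LT T z u F σ m n j y)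
    (ha : LT T z u F σ m n j a) (hb : LT T z u F σ m n j b) (hxy : x ≠ y) (hxa : x ≠ a)
    (hxb : x ≠ b) (hya : y ≠ a) (hyb : y ≠ b) (hab : a ≠ b) : False := by
  have h1 := lt_card hf.irr (hf.lc σ (lp z u m n) (j.val : ℝ))
  have h2 : ({x, y, a, b} : Set (Fin 6)).ncard = 4 := by
    rw [Set.ncard_insert_of_notMem (by simp [hxy, hxa, hxb]),
      Set.ncard_insert_of_notMem (by simp [hya, hyb]), Set.ncard_pair hab]
  have h3 := Set.ncard_le_ncard (s := ({x, y, a, b} : Set (Fin 6)))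
    (t := lt (F σ) T (lp z u m n) (j.val : ℝ)) (by
      rintro c (rfl | rfl | rfl | rfl) <;> assumption) (Set.toFinite _)
  omega

/-- **sideIO4** -/
theorem sideIO4 (hf : Fr U T u F) (hM : M605 T (lp z u m n) x y) (hM' : M605 T (lp z u m n) a b)
    (hxa : x ≠ a) (hxb : x ≠ b) (hya : y ≠ a) (hyb : y ≠ b) (hi : IN T z u F σ m n j x)
    (ho : OUT T z u F σ m n j x) : 5 ≤ (T (lp z u m n)).ncard := by
  by_contra hcon
  exact lt_side hf.irr (dpt_of hf.irr (by omega) hM hM' hxa hxb hya hyb) ⟨hi, ho⟩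

/-- **defM** -/
theorem defM (ha : LT T z u F σ m n j a) (hb : LT T z u F σ m n j b) (hab : a ≠ b)
    (hTa : TT T z u m n a) (hTb : TT T z u m n b) :
    M605 T (lp z u m n) a b ∨ ∃ c, c ≠ a ∧ c ≠ b ∧ LT T z u F σ m n j c := by
  by_cases h3 : ∃ c, c ≠ a ∧ c ≠ b ∧ LT T z u F σ m n j c
  · exact Or.inr h3
  · left
    push Not at h3
    refine M605_of (F := F σ) (k := (j.val : ℝ)) hab hTa hTb ?_
    ext c
    constructor
    · intro hc
      by_contra h4
      simp only [mem_insert_iff, mem_singleton_iff, not_or] at h4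
      exact h3 c h4.1 h4.2 hc
    · rintro (rfl | rfl) <;> assumption

end Vale.Agent.P032.H894
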