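import Vale.Agent.P032.H437.LOK
import Vale.Agent.P032.H894.Fam

/-!
# P032: the family side4 for the frame of `K` times

At most four colours at the point and two disjoint exact pairs `{x, y}`, `{a, b}` : the colour `x`
does not occur on both sides of a letter point.
-/

open Set Filter Topology Metric

noncomputable section

namespace Vale.Agent.P032.H894

open Vale.Agent.P032.Six Vale.Agent.P032.H437

variable {U : Fin 6 → Set ℂ} {T : ℂ → Set (Fin 6)} {K : ℕ} {uu : Fin K → ℝ}
  {FF : Fin K → Bool → Ultrafilter ℝ}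

/-- **side4** -/
theorem side4K (h : Irr U T) (z : ℂ) {c : Fin K} {σ : Bool} {q : QK K} {j x y a b : Fin 6}
    (hxa : x ≠ a) (hxb : x ≠ b) (hya : y ≠ a) (hyb : y ≠ b) (h5 : ¬ GEK (TK T z uu) q 5)
    (hM : MK T z uu q x y) (hM' : MK T z uu q a b) (hi : IK T z uu FF c σ q j x) :
    ¬ OK T z uu FF c σ q j x := by
  have h5 : ¬ 5 ≤ (T (lK z uu q)).ncard := h5
  exact lt_side_M h (by omega) hM hM' hxa hxb hya hyb hi

end Vale.Agent.P032.H894
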