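import Vale.Agent.P032.Six.Max
import Vale.Agent.P032.Six.Geo

/-!
# P032: the cell sweep

`u = w + cis t`, `p` a point of the unit circle about `u`, not `w` and not opposite to `w`.  If the
colours of `P` are in the palettes of the points `w + cis s` for an open set of `s` which accumulates
at `t` (from one side), then every open set `C` which contains the end of a ray `p + r d` on the side
swept by the circles about these points contains, arbitrarily near `p`, points of a colour outside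
`P`.
-/

open Set Filter Topology Metric

noncomputable section

namespace Vale.Agent.P032.Six

/-- `‖q - (w + cis s)‖ ^ 2 - 1` -/
def swF (w q : ℂ) (s : ℝ) : ℝ := ‖q - (w + cis s)‖ ^ 2 - 1

theorem continuous_swF (w : ℂ) : Continuous fun x : ℂ × ℝ => swF w x.1 x.2 := by
  unfold swF
  have := continuous_cis
  fun_prop

/-- the derivative in the time -/
def swD (w q : ℂ) (s : ℝ) : ℝ := ((q - w) * (starRingEnd ℂ) (cis s)).im

theorem continuous_swD (w : ℂ) : Continuous fun x : ℂ × ℝ => swD w x.1 x.2 := by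
  unfold swD
  have := continuous_cis
  fun_prop

theorem swF_eq (w q : ℂ) (s : ℝ) :
    swF w q s = (q - w).re ^ 2 + (q - w).im ^ 2 -
      2 * ((q - w).re * Real.cos s + (q - w).im * Real.sin s) := by
  unfold swF cis
  rw [← Complex.normSq_eq_norm_sq, Complex.normSq_apply]
  have e1 : (Complex.exp (s * Complex.I)).re = Real.cos s := by
    rw [Complex.exp_ofReal_mul_I_re]
  have e2 : (Complex.exp (s * Complex.I)).im = Real.sin s := by
    rw [Complex.exp_ofReal_mul_I_im]
  simp only [Complex.sub_re, Complex.sub_im, Complex.add_re, Complex.add_im, e1, e2]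
  have := Real.sin_sq_add_cos_sq s
  nlinarith

theorem swD_eq (w q : ℂ) (s : ℝ) :
    swD w q s = (q - w).im * Real.cos s - (q - w).re * Real.sin s := by
  unfold swD cis
  have e1 : (Complex.exp (s * Complex.I)).re = Real.cos s := by
    rw [Complex.exp_ofReal_mul_I_re]
  have e2 : (Complex.exp (s * Complex.I)).im = Real.sin s := by
    rw [Complex.exp_ofReal_mul_I_im]
  simp only [Complex.mul_im, Complex.conj_re, Complex.conj_im, e1, e2]
  ring

theorem hasDerivAt_swF (w q : ℂ) (s : ℝ) : HasDerivAt (swF w q) (-2 * swD w q s) s := by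
  have e : swF w q = fun s => (q - w).re ^ 2 + (q - w).im ^ 2 -
      2 * ((q - w).re * Real.cos s + (q - w).im * Real.sin s) := by
    funext s
    exact swF_eq w q s
  rw [e, swD_eq]
  have h := ((((Real.hasDerivAt_cos s).const_mul (q - w).re).add
    ((Real.hasDerivAt_sin s).const_mul (q - w).im)).const_mul 2).const_sub
      ((q - w).re ^ 2 + (q - w).im ^ 2)
  refine h.congr_deriv ?_
  ring

/-- a function with a zero of nonzero derivative changes its sign -/
theorem sign_change {f : ℝ → ℝ} {f' s : ℝ} (h : HasDerivAt f f' s) (h0 : f s = 0) (hf : f' ≠ 0) :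
    (∀ᶠ x in 𝓝[>] s, 0 < f x * f') ∧ ∀ᶠ x in 𝓝[<] s, f x * f' < 0 := by
  have hsl := hasDerivAt_iff_tendsto_slope.1 h
  have hpos : 0 < f' * f' := mul_self_pos.2 hf
  have h1 : ∀ᶠ x in 𝓝[≠] s, 0 < slope f s x * f' :=
    (hsl.mul_const f').eventually (lt_mem_nhds hpos)
  constructor
  · have h2 : 𝓝[>] s ≤ 𝓝[≠] s := nhdsWithin_mono _ fun x hx => ne_of_gt hx
    filter_upwards [h2 h1, self_mem_nhdsWithin] with x hx hxs
    have hxs' : 0 < x - s := sub_pos.2 hxs
    rw [slope_def_field, h0, sub_zero] at hx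
    have : f x * f' = (f x / (x - s) * f') * (x - s) := by field_simp
    rw [this]
    positivity
  · have h2 : 𝓝[<] s ≤ 𝓝[≠] s := nhdsWithin_mono _ fun x hx => ne_of_lt hx
    filter_upwards [h2 h1, self_mem_nhdsWithin] with x hx hxs
    have hxs' : x - s < 0 := sub_neg.2 hxs
    rw [slope_def_field, h0, sub_zero] at hx
    have : f x * f' = (f x / (x - s) * f') * (x - s) := by
      have := hxs'.ne
      field_simp
    rw [this]
    exact mul_neg_of_pos_of_neg hx hxs'

/-- intermediate value theorem in product form -/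
theorem exists_zero {f : ℝ → ℝ} (hf : Continuous f) {a b : ℝ} (hab : a < b)
    (h : f a * f b < 0) : ∃ c ∈ Ioo a b, f c = 0 := by
  rcases mul_neg_iff.1 h with ⟨h1, h2⟩ | ⟨h1, h2⟩
  · obtain ⟨c, hc, h3⟩ := intermediate_value_Ioo' hab.le hf.continuousOn ⟨h2, h1⟩
    exact ⟨c, hc, h3⟩
  · obtain ⟨c, hc, h3⟩ := intermediate_value_Ioo hab.le hf.continuousOn ⟨h1, h2⟩
    exact ⟨c, hc, h3⟩

variable {k : ℕ} {U : Fin k → Set ℂ}

theorem swF_zero {w q : ℂ} {s : ℝ} (h : swF w q s = 0) : dist q (w + cis s) = 1 := by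
  unfold swF at h
  rw [dist_eq_norm]
  have h0 := norm_nonneg (q - (w + cis s))
  nlinarith

/-- the points near a swept point have no colour of `P` -/
theorem no_colour (h : Mx U) {w q : ℂ} {s : ℝ} {P : Set (Fin k)} (h0 : swF w q s = 0)
    (hD : swD w q s ≠ 0) (hP : ∀ᶠ x in 𝓝 s, P ⊆ Pal U (w + cis x)) :
    ∀ᶠ q' in 𝓝 q, ∀ i ∈ P, q' ∉ U i := by
  obtain ⟨ε, hε, hball⟩ := Metric.eventually_nhds_iff.1 hP
  have hd := hasDerivAt_swF w q s
  obtain ⟨h1, h2⟩ := sign_change hd h0 (mul_ne_zero (by norm_num) hD)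
  obtain ⟨b, hb1, hb2, hb3⟩ := (h1.and ((Ioo_mem_nhdsGT (show s < s + ε by linarith)))).exists
  obtain ⟨a, ha1, ha2, ha3⟩ := (h2.and ((Ioo_mem_nhdsLT (show s - ε < s by linarith)))).exists
  have hneg : swF w q a * swF w q b < 0 := by
    have h3 : 0 < (-2 * swD w q s) ^ 2 := by positivity
    have h4 : (swF w q a * swF w q b) * (-2 * swD w q s) ^ 2 =
        (swF w q a * (-2 * swD w q s)) * (swF w q b * (-2 * swD w q s)) := by ring
    have h5 : (swF w q a * swF w q b) * (-2 * swD w q s) ^ 2 < 0 := by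
      rw [h4]
      exact mul_neg_of_neg_of_pos ha1 hb1
    by_contra hcon
    exact absurd (mul_nonneg (not_lt.1 hcon) h3.le) (not_le.2 h5)
  have hc : ∀ x : ℝ, Continuous fun q' : ℂ => swF w q' x := fun x =>
    (continuous_swF w).comp (Continuous.prodMk_left x)
  have hev : ∀ᶠ q' in 𝓝 q, swF w q' a * swF w q' b < 0 :=
    ((hc a).mul (hc b)).continuousAt.eventually_lt continuousAt_const hneg
  filter_upwards [hev] with q' hq' i hi hqi
  obtain ⟨x, hx, hx0⟩ := exists_zero ((continuous_swF w).comp (Continuous.prodMk_right q'))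
    (ha3.trans hb2) hq'
  have hx1 : P ⊆ Pal U (w + cis x) := by
    refine hball ?_
    rw [Real.dist_eq, abs_lt]
    constructor
    · have := hx.1; linarith
    · have := hx.2; linarith
  exact h.free i q' hqi (w + cis x) (hx1 hi) (swF_zero hx0)

/-- **The cell sweep**, general form: along a filter `l` of times near `t` with the right sign. -/
theorem cell_sweep_aux (h : Mx U) {w p : ℂ} {t : ℝ} (h0 : swF w p t = 0) (hD : swD w p t ≠ 0)
    {P : Set (Fin k)} {d : ℂ} {l : Filter ℝ} (hl : l ≤ 𝓝 t)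
    (ha : ((p - (w + cis t)) * (starRingEnd ℂ) d).re ≠ 0)
    (hF : ∀ᶠ s in l, swF w p s * ((p - (w + cis t)) * (starRingEnd ℂ) d).re < 0)
    (hP : ∃ᶠ s in l, ∀ᶠ x in 𝓝 s, P ⊆ Pal U (w + cis x)) {C : Set ℂ} (hC : IsOpen C)
    (hd : ∀ᶠ r : ℝ in 𝓝[>] 0, p + r * d ∈ C) :
    ∃ c ∉ P, ∃ᶠ q in 𝓝 p, q ∈ C ∧ q ∈ U c := by
  set a := ((p - (w + cis t)) * (starRingEnd ℂ) d).re with ha'
  -- finiteness
  suffices hsuff : ∀ O : Set ℂ, IsOpen O → p ∈ O → ∃ q ∈ O, q ∈ C ∧ ∃ c ∉ P, q ∈ U c by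
    by_contra hcon
    push Not at hcon
    have h1 : ∀ᶠ q in 𝓝 p, ∀ c, c ∉ P → ¬ (q ∈ C ∧ q ∈ U c) := by
      rw [eventually_all]
      intro c
      by_cases hc : c ∈ P
      · exact Eventually.of_forall fun q hq => absurd hc hq
      · exact (hcon c hc).mono fun q hq _ hqc => hq hqc.1 hqc.2
    obtain ⟨O, hO, hOo, hpO⟩ := _root_.eventually_nhds_iff.1 h1
    obtain ⟨q, hqO, hqC, c, hc, hqc⟩ := hsuff O hOo hpO
    exact hO q hqO c hc ⟨hqC, hqc⟩
  intro O hO hpO
  -- the function along the ray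
  have hray : ∀ r s : ℝ, swF w (p + r * d) t = 2 * a * r + r ^ 2 * ‖d‖ ^ 2 := by
    intro r _
    have h1 : swF w p t = 0 := h0
    unfold swF at h1 ⊢
    have h2 : p + r * d - (w + cis t) = (p - (w + cis t)) + r * d := by ring
    rw [h2, ha']
    set z := p - (w + cis t)
    rw [← Complex.normSq_eq_norm_sq, Complex.normSq_apply] at h1 ⊢
    rw [← Complex.normSq_eq_norm_sq, Complex.normSq_apply]
    simp only [Complex.add_re, Complex.add_im, Complex.mul_re, Complex.mul_im, Complex.ofReal_re,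
      Complex.ofReal_im, Complex.conj_re, Complex.conj_im]
    nlinarith
  -- choice of the length
  have hcp : Continuous fun r : ℝ => p + r * d := by fun_prop
  have hp0 : p + ((0 : ℝ) : ℂ) * d = p := by simp
  have hnear : ∀ᶠ x : ℝ × ℝ in 𝓝 (0, t), p + x.1 * d ∈ O ∧ swD w (p + x.1 * d) x.2 ≠ 0 := by
    have h1 : Continuous fun x : ℝ × ℝ => swD w (p + x.1 * d) x.2 :=
      (continuous_swD w).comp ((hcp.comp continuous_fst).prodMk continuous_snd)
    have h2 : Continuous fun x : ℝ × ℝ => p + x.1 * d := hcp.comp continuous_fst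
    refine (h2.continuousAt.eventually_mem (hO.mem_nhds (by simpa using hpO))).and ?_
    exact h1.continuousAt.eventually_ne (by simpa using hD)
  rw [nhds_prod_eq, eventually_prod_iff] at hnear
  obtain ⟨pa, hpa, pb, hpb, hab⟩ := hnear
  obtain ⟨δ, hδ, hδb⟩ := Metric.eventually_nhds_iff.1 hpa
  obtain ⟨δ', hδ', hCd⟩ : ∃ δ' > 0, ∀ r ∈ Ioo (0 : ℝ) δ', p + r * d ∈ C := by
    obtain ⟨δ', hδ', hsub⟩ := mem_nhdsGT_iff_exists_Ioo_subset.1 hd
    exact ⟨δ', hδ', fun r hr => hsub hr⟩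
  have hev : ∀ᶠ r in 𝓝[>] (0 : ℝ), 0 < (2 * a * r + r ^ 2 * ‖d‖ ^ 2) * a := by
    have h1 : ∀ᶠ r in 𝓝 (0 : ℝ), 0 < 2 * a * a + r * ‖d‖ ^ 2 * a := by
      have : Continuous fun r : ℝ => 2 * a * a + r * ‖d‖ ^ 2 * a := by fun_prop
      refine continuousAt_const.eventually_lt this.continuousAt ?_
      have := mul_self_pos.2 ha
      nlinarith
    filter_upwards [nhdsWithin_le_nhds h1, self_mem_nhdsWithin] with r hr hr0
    have : (2 * a * r + r ^ 2 * ‖d‖ ^ 2) * a = r * (2 * a * a + r * ‖d‖ ^ 2 * a) := by ring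
    rw [this]
    exact mul_pos hr0 hr
  obtain ⟨s₀, hs1, hs2, hs3⟩ := (hev.and (Ioo_mem_nhdsGT (show (0 : ℝ) < min δ δ' from
    lt_min hδ hδ'))).exists
  -- the times
  have hs₀F : ∀ᶠ s in 𝓝 t, 0 < swF w (p + s₀ * d) s * a := by
    have h1 : Continuous fun s : ℝ => swF w (p + s₀ * d) s * a :=
      ((continuous_swF w).comp (Continuous.prodMk_right _)).mul continuous_const
    refine continuousAt_const.eventually_lt h1.continuousAt ?_
    rw [hray s₀ t]
    exact hs1
  have hl1 : ∀ᶠ s in l, 0 < swF w (p + s₀ * d) s * a := hl hs₀F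
  have hl2 : ∀ᶠ s in l, pb s := hl hpb
  obtain ⟨s, ⟨hsP, hsF⟩, hs4, hs5⟩ :=
    ((hP.and_eventually hF).and_eventually (hl1.and hl2)).exists
  -- the zero on the ray
  have hneg : swF w (p + ((0 : ℝ) : ℂ) * d) s * swF w (p + s₀ * d) s < 0 := by
    rw [hp0]
    have h3 : 0 < a ^ 2 := by positivity
    have h4 : (swF w p s * swF w (p + s₀ * d) s) * a ^ 2 =
        (swF w p s * a) * (swF w (p + s₀ * d) s * a) := by ring
    have h5 : (swF w p s * swF w (p + s₀ * d) s) * a ^ 2 < 0 := by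
      rw [h4]
      exact mul_neg_of_neg_of_pos hsF hs4
    by_contra hcon
    exact absurd (mul_nonneg (not_lt.1 hcon) h3.le) (not_le.2 h5)
  obtain ⟨r, hr, hr0⟩ := exists_zero (f := fun r : ℝ => swF w (p + r * d) s)
    ((continuous_swF w).comp (hcp.prodMk continuous_const)) hs2 hneg
  have hrδ : r < δ := hr.2.trans (hs3.trans_le (min_le_left _ _))
  have hrδ' : r < δ' := hr.2.trans (hs3.trans_le (min_le_right _ _))
  have hpar : pa r := hδb (by rw [Real.dist_eq, sub_zero, abs_of_pos hr.1]; exact hrδ)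
  obtain ⟨hrO, hrD⟩ := hab hpar hs5
  have hrC : p + r * d ∈ C := hCd r ⟨hr.1, hrδ'⟩
  have hno := no_colour h hr0 hrD hsP
  obtain ⟨V, hV, hVo, hqV⟩ := _root_.eventually_nhds_iff.1
    ((hno.and (hO.mem_nhds hrO)).and (hC.mem_nhds hrC))
  obtain ⟨q, hqV', hqU⟩ := h.dense.inter_open_nonempty V hVo ⟨_, hqV⟩
  obtain ⟨c, hc⟩ := mem_iUnion.1 hqU
  obtain ⟨⟨h1, h2⟩, h3⟩ := hV q hqV'
  exact ⟨q, h2, h3, c, fun hcP => h1 c hcP hc, hc⟩

/-- the side condition: not `w`, not opposite to `w` -/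
theorem swD_ne {w p : ℂ} {t : ℝ} (h0 : dist p (w + cis t) = 1) (hw : p ≠ w)
    (hw2 : p ≠ w + 2 * cis t) : swD w p t ≠ 0 := by
  intro hD
  -- `p - w = x cis t` with real `x`
  set z : ℂ := (p - w) * (starRingEnd ℂ) (cis t) with hz
  have hc : cis t * (starRingEnd ℂ) (cis t) = 1 := by
    rw [Complex.mul_conj, Complex.normSq_eq_norm_sq, norm_cis]
    norm_num
  have h1 : p - w = z * cis t := by
    rw [hz, mul_assoc, mul_comm _ (cis t), hc, mul_one]
  have h2 : z = (z.re : ℂ) := by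
    refine Complex.ext rfl ?_
    rw [Complex.ofReal_im]
    exact hD
  have h3 : ‖z - 1‖ = 1 := by
    rw [dist_eq_norm] at h0
    have h4 : p - (w + cis t) = (z - 1) * cis t := by
      rw [sub_mul, ← h1, one_mul]
      ring
    rw [h4, norm_mul, norm_cis, mul_one] at h0
    exact h0
  rw [h2, ← Complex.ofReal_one, ← Complex.ofReal_sub, Complex.norm_real, Real.norm_eq_abs,
    abs_eq zero_le_one] at h3
  rcases h3 with h3 | h3
  · refine hw2 ?_
    have h5 : z.re = 2 := by linarith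
    rw [h2, h5] at h1
    push_cast at h1
    linear_combination h1
  · refine hw ?_
    have h5 : z.re = 0 := by linarith
    rw [h2, h5, Complex.ofReal_zero, zero_mul] at h1
    linear_combination h1

theorem swF_of_dist {w p : ℂ} {t : ℝ} (h0 : dist p (w + cis t) = 1) : swF w p t = 0 := by
  unfold swF
  rw [← dist_eq_norm, h0]
  norm_num

/-- **The cell sweep**, times after `t`: `0 < a * b` with `a = Re ((p - u) conj d)`,
`b = Im ((p - w) conj (cis t))`. -/
theorem cell_sweep_right (h : Mx U) {w p : ℂ} {t : ℝ} (h0 : dist p (w + cis t) = 1)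
    {P : Set (Fin k)} {d : ℂ}
    (side : 0 < ((p - (w + cis t)) * (starRingEnd ℂ) d).re * swD w p t)
    (hP : ∃ᶠ s in 𝓝[>] t, ∀ᶠ x in 𝓝 s, P ⊆ Pal U (w + cis x)) {C : Set ℂ} (hC : IsOpen C)
    (hd : ∀ᶠ r : ℝ in 𝓝[>] 0, p + r * d ∈ C) :
    ∃ c ∉ P, ∃ᶠ q in 𝓝 p, q ∈ C ∧ q ∈ U c := by
  set a := ((p - (w + cis t)) * (starRingEnd ℂ) d).re with ha
  have ha0 : a ≠ 0 := left_ne_zero_of_mul side.ne'
  have hD : swD w p t ≠ 0 := right_ne_zero_of_mul side.ne'
  refine cell_sweep_aux h (swF_of_dist h0) hD nhdsWithin_le_nhds ha0 ?_ hP hC hd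
  have h1 := (sign_change (hasDerivAt_swF w p t) (swF_of_dist h0)
    (mul_ne_zero (by norm_num) hD)).1
  filter_upwards [h1] with s hs
  have h2 : 0 < (swF w p s * (-2 * swD w p t)) * (a * swD w p t) := mul_pos hs side
  have h3 : (swF w p s * (-2 * swD w p t)) * (a * swD w p t) =
      -2 * (swD w p t) ^ 2 * (swF w p s * a) := by ring
  rw [h3] at h2
  have h4 : 0 < (swD w p t) ^ 2 := by positivity
  by_contra hcon
  have h5 := mul_nonneg h4.le (not_lt.1 hcon)
  linarith

/-- **The cell sweep**, times before `t`. -/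
theorem cell_sweep_left (h : Mx U) {w p : ℂ} {t : ℝ} (h0 : dist p (w + cis t) = 1)
    {P : Set (Fin k)} {d : ℂ}
    (side : ((p - (w + cis t)) * (starRingEnd ℂ) d).re * swD w p t < 0)
    (hP : ∃ᶠ s in 𝓝[<] t, ∀ᶠ x in 𝓝 s, P ⊆ Pal U (w + cis x)) {C : Set ℂ} (hC : IsOpen C)
    (hd : ∀ᶠ r : ℝ in 𝓝[>] 0, p + r * d ∈ C) :
    ∃ c ∉ P, ∃ᶠ q in 𝓝 p, q ∈ C ∧ q ∈ U c := by
  set a := ((p - (w + cis t)) * (starRingEnd ℂ) d).re with ha
  have ha0 : a ≠ 0 := left_ne_zero_of_mul side.ne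
  have hD : swD w p t ≠ 0 := right_ne_zero_of_mul side.ne
  refine cell_sweep_aux h (swF_of_dist h0) hD nhdsWithin_le_nhds ha0 ?_ hP hC hd
  have h1 := (sign_change (hasDerivAt_swF w p t) (swF_of_dist h0)
    (mul_ne_zero (by norm_num) hD)).2
  filter_upwards [h1] with s hs
  have h2 : 0 < (swF w p s * (-2 * swD w p t)) * (a * swD w p t) := mul_pos_of_neg_of_neg hs side
  have h3 : (swF w p s * (-2 * swD w p t)) * (a * swD w p t) =
      -2 * (swD w p t) ^ 2 * (swF w p s * a) := by ring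
  rw [h3] at h2
  have h4 : 0 < (swD w p t) ^ 2 := by positivity
  by_contra hcon
  have h5 := mul_nonneg h4.le (not_lt.1 hcon)
  linarith

end Vale.Agent.P032.Six
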